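import Crest.Agent.Lib.Bc.Q4I.Cert.P9
/-! Generated by split.py (helper88): kernel checks of subtrees. -/
set_option autoImplicit false
set_option Elab.async false
namespace Crest.Agent.Lib.Bc.Q4I.Cert

open Crest.Agent.Lib.Bc.BernCert

/-- subtree with 1 leaf pairs -/
def T_s120 : PT := PT.L

set_option maxRecDepth 1000000 in
theorem s120 : subCheck cfg T_s120 (child (child (child (child (child C4 3 0) 1 3) 1 0) 1 2) 1 3) (child (child (child (child (child (child C4 0 3) 0 2) 1 0) 1 3) 1 2) 0 3) = true := by decide +kernel

/-- subtree with 1 leaf pairs -/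
def T_s121 : PT := PT.L

set_option maxRecDepth 1000000 in
theorem s121 : subCheck cfg T_s121 (child (child (child (child (child (child C4 3 0) 1 3) 1 0) 1 2) 1 3) 0 1) (child (child (child (child (child (child C4 0 3) 0 2) 1 0) 1 3) 1 2) 3 0) = true := by decide +kernel

/-- subtree with 1 leaf pairs -/
def T_s122 : PT := PT.L

set_option maxRecDepth 1000000 in
theorem s122 : subCheck cfg T_s122 (child (child (child (child (child (child C4 3 0) 1 3) 1 0) 1 2) 1 3) 1 0) (child (child (child (child (child (child C4 0 3) 0 2) 1 0) 1 3) 1 2) 3 0) = true := by decide +kernel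

/-- subtree with 1 leaf pairs -/
def T_s123 : PT := PT.L

set_option maxRecDepth 1000000 in
theorem s123 : subCheck cfg T_s123 (child (child (child (child (child C4 3 0) 1 3) 1 0) 1 2) 3 1) (child (child (child (child (child C4 0 3) 0 2) 1 0) 1 3) 1 2) = true := by decide +kernel

/-- subtree with 1 leaf pairs -/
def T_s124 : PT := PT.L

set_option maxRecDepth 1000000 in
theorem s124 : subCheck cfg T_s124 (child (child (child (child C4 3 0) 1 3) 1 0) 1 2) (child (child (child (child (child C4 0 3) 0 2) 1 0) 1 3) 2 1) = true := by decide +kernel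

/-- subtree with 1 leaf pairs -/
def T_s125 : PT := PT.L

set_option maxRecDepth 1000000 in
theorem s125 : subCheck cfg T_s125 (child (child (child (child C4 3 0) 1 3) 1 0) 2 1) (child (child (child (child C4 0 3) 0 2) 1 0) 1 3) = true := by decide +kernel

/-- subtree with 1 leaf pairs -/
def T_s126 : PT := PT.L

set_option maxRecDepth 1000000 in
theorem s126 : subCheck cfg T_s126 (child (child (child C4 3 0) 1 3) 1 0) (child (child (child (child C4 0 3) 0 2) 1 0) 3 1) = true := by decide +kernel

/-- subtree with 1 leaf pairs -/
def T_s127 : PT := PT.L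

set_option maxRecDepth 1000000 in
theorem s127 : subCheck cfg T_s127 (child (child C4 3 0) 3 1) (child (child (child C4 0 3) 0 2) 1 0) = true := by decide +kernel

/-- subtree with 1 leaf pairs -/
def T_s128 : PT := PT.L

set_option maxRecDepth 1000000 in
theorem s128 : subCheck cfg T_s128 (child (child (child C4 3 0) 1 3) 0 1) (child (child C4 0 3) 2 0) = true := by decide +kernel

/-- subtree with 1 leaf pairs -/
def T_s129 : PT := PT.L

set_option maxRecDepth 1000000 in
theorem s129 : subCheck cfg T_s129 (child (child (child (child C4 3 0) 1 3) 1 0) 1 2) (child (child (child (child (child C4 0 3) 2 0) 1 3) 1 2) 0 1) = true := by decide +kernel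

/-- subtree with 1 leaf pairs -/
def T_s130 : PT := PT.L

set_option maxRecDepth 1000000 in
theorem s130 : subCheck cfg T_s130 (child (child (child (child (child (child C4 3 0) 1 3) 1 0) 1 2) 1 3) 0 1) (child (child (child (child (child C4 0 3) 2 0) 1 3) 1 2) 1 0) = true := by decide +kernel

/-- subtree with 1 leaf pairs -/
def T_s131 : PT := PT.L

set_option maxRecDepth 1000000 in
theorem s131 : subCheck cfg T_s131 (child (child (child (child (child (child C4 3 0) 1 3) 1 0) 1 2) 1 3) 1 0) (child (child (child (child (child C4 0 3) 2 0) 1 3) 1 2) 1 0) = true := by decide +kernel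

end Crest.Agent.Lib.Bc.Q4I.Cert
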