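import Crest.Agent.Lib.Bc.Q4I.Cert.P10
/-! Generated by split.py (helper88): kernel checks of subtrees. -/
set_option autoImplicit false
set_option Elab.async false
namespace Crest.Agent.Lib.Bc.Q4I.Cert

open Crest.Agent.Lib.Bc.BernCert

/-- subtree with 1 leaf pairs -/
def T_s132 : PT := PT.L

set_option maxRecDepth 1000000 in
theorem s132 : subCheck cfg T_s132 (child (child (child (child (child C4 3 0) 1 3) 1 0) 1 2) 3 1) (child (child (child (child (child C4 0 3) 2 0) 1 3) 1 2) 1 0) = true := by decide +kernel

/-- subtree with 1 leaf pairs -/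
def T_s133 : PT := PT.L

set_option maxRecDepth 1000000 in
theorem s133 : subCheck cfg T_s133 (child (child (child (child C4 3 0) 1 3) 1 0) 1 2) (child (child (child (child C4 0 3) 2 0) 1 3) 2 1) = true := by decide +kernel

/-- subtree with 1 leaf pairs -/
def T_s134 : PT := PT.L

set_option maxRecDepth 1000000 in
theorem s134 : subCheck cfg T_s134 (child (child (child (child C4 3 0) 1 3) 1 0) 2 1) (child (child (child C4 0 3) 2 0) 1 3) = true := by decide +kernel

/-- subtree with 1 leaf pairs -/
def T_s135 : PT := PT.L

set_option maxRecDepth 1000000 in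
theorem s135 : subCheck cfg T_s135 (child (child (child C4 3 0) 1 3) 1 0) (child (child (child C4 0 3) 2 0) 3 1) = true := by decide +kernel

/-- subtree with 1 leaf pairs -/
def T_s136 : PT := PT.L

set_option maxRecDepth 1000000 in
theorem s136 : subCheck cfg T_s136 (child (child C4 3 0) 3 1) (child (child C4 0 3) 2 0) = true := by decide +kernel

/-- subtree with 1 leaf pairs -/
def T_s137 : PT := PT.L

set_option maxRecDepth 1000000 in
theorem s137 : subCheck cfg T_s137 (child (child (child C4 3 0) 1 3) 0 1) (child (child C4 3 0) 1 3) = true := by decide +kernel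

/-- subtree with 1 leaf pairs -/
def T_s138 : PT := PT.L

set_option maxRecDepth 1000000 in
theorem s138 : subCheck cfg T_s138 (child (child (child C4 3 0) 1 3) 1 0) (child (child (child C4 3 0) 1 3) 0 1) = true := by decide +kernel

/-- subtree with 1 leaf pairs -/
def T_s139 : PT := PT.L

set_option maxRecDepth 1000000 in
theorem s139 : subCheck cfg T_s139 (child (child (child (child (child (child C4 3 0) 1 3) 1 0) 1 2) 1 3) 0 1) (child (child (child (child (child C4 3 0) 1 3) 1 0) 1 2) 1 3) = true := by decide +kernel

/-- subtree with 1 leaf pairs -/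
def T_s140 : PT := PT.L

set_option maxRecDepth 1000000 in
theorem s140 : subCheck cfg T_s140 (child (child (child (child (child (child C4 3 0) 1 3) 1 0) 1 2) 1 3) 1 0) (child (child (child (child (child C4 3 0) 1 3) 1 0) 1 2) 1 3) = true := by decide +kernel

/-- subtree with 1 leaf pairs -/
def T_s141 : PT := PT.L

set_option maxRecDepth 1000000 in
theorem s141 : subCheck cfg T_s141 (child (child (child (child (child C4 3 0) 1 3) 1 0) 1 2) 1 3) (child (child (child (child (child C4 3 0) 1 3) 1 0) 1 2) 3 1) = true := by decide +kernel

/-- subtree with 1 leaf pairs -/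
def T_s142 : PT := PT.L

set_option maxRecDepth 1000000 in
theorem s142 : subCheck cfg T_s142 (child (child (child (child (child C4 3 0) 1 3) 1 0) 1 2) 3 1) (child (child (child (child C4 3 0) 1 3) 1 0) 1 2) = true := by decide +kernel

/-- subtree with 1 leaf pairs -/
def T_s143 : PT := PT.L

set_option maxRecDepth 1000000 in
theorem s143 : subCheck cfg T_s143 (child (child (child (child C4 3 0) 1 3) 1 0) 1 2) (child (child (child (child C4 3 0) 1 3) 1 0) 2 1) = true := by decide +kernel

end Crest.Agent.Lib.Bc.Q4I.Cert
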