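import Crest.Agent.Lib.Bc.Q4I.Cert.P11
/-! Generated by split.py (helper88): kernel checks of subtrees. -/
set_option autoImplicit false
set_option Elab.async false
namespace Crest.Agent.Lib.Bc.Q4I.Cert

open Crest.Agent.Lib.Bc.BernCert

/-- subtree with 1 leaf pairs -/
def T_s144 : PT := PT.L

set_option maxRecDepth 1000000 in
theorem s144 : subCheck cfg T_s144 (child (child (child (child C4 3 0) 1 3) 1 0) 2 1) (child (child (child C4 3 0) 1 3) 1 0) = true := by decide +kernel

/-- subtree with 1 leaf pairs -/
def T_s145 : PT := PT.L

set_option maxRecDepth 1000000 in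
theorem s145 : subCheck cfg T_s145 (child (child C4 3 0) 1 3) (child (child C4 3 0) 3 1) = true := by decide +kernel

/-- subtree with 1 leaf pairs -/
def T_s146 : PT := PT.L

set_option maxRecDepth 1000000 in
theorem s146 : subCheck cfg T_s146 (child (child C4 3 0) 3 1) (child C4 3 0) = true := by decide +kernel

end Crest.Agent.Lib.Bc.Q4I.Cert
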