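import Crest.Agent.Lib.Bc.Q4I.Cert.P1
/-! Generated by split.py (helper88): kernel checks of subtrees. -/
set_option autoImplicit false
set_option Elab.async false
namespace Crest.Agent.Lib.Bc.Q4I.Cert

open Crest.Agent.Lib.Bc.BernCert

/-- subtree with 1 leaf pairs -/
def T_s24 : PT := PT.L

set_option maxRecDepth 1000000 in
theorem s24 : subCheck cfg T_s24 (child (child (child (child C4 0 3) 0 2) 0 1) 3 0) (child (child (child (child (child C4 0 3) 0 2) 0 1) 0 3) 2 0) = true := by decide +kernel

/-- subtree with 1 leaf pairs -/
def T_s25 : PT := PT.L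

set_option maxRecDepth 1000000 in
theorem s25 : subCheck cfg T_s25 (child (child (child (child C4 0 3) 0 2) 0 1) 3 0) (child (child (child (child C4 0 3) 0 2) 0 1) 3 0) = true := by decide +kernel

/-- subtree with 1 leaf pairs -/
def T_s26 : PT := PT.L

set_option maxRecDepth 1000000 in
theorem s26 : subCheck cfg T_s26 (child (child (child (child C4 0 3) 0 2) 0 1) 0 3) (child (child (child C4 0 3) 0 2) 1 0) = true := by decide +kernel

/-- subtree with 1 leaf pairs -/
def T_s27 : PT := PT.L

set_option maxRecDepth 1000000 in
theorem s27 : subCheck cfg T_s27 (child (child (child (child C4 0 3) 0 2) 0 1) 3 0) (child (child (child (child C4 0 3) 0 2) 1 0) 1 3) = true := by decide +kernel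

/-- subtree with 1 leaf pairs -/
def T_s28 : PT := PT.L

set_option maxRecDepth 1000000 in
theorem s28 : subCheck cfg T_s28 (child (child (child (child C4 0 3) 0 2) 0 1) 3 0) (child (child (child (child C4 0 3) 0 2) 1 0) 3 1) = true := by decide +kernel

/-- subtree with 1 leaf pairs -/
def T_s29 : PT := PT.L

set_option maxRecDepth 1000000 in
theorem s29 : subCheck cfg T_s29 (child (child (child C4 0 3) 0 2) 1 0) (child (child (child (child C4 0 3) 0 2) 0 1) 0 3) = true := by decide +kernel

/-- subtree with 1 leaf pairs -/
def T_s30 : PT := PT.L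

set_option maxRecDepth 1000000 in
theorem s30 : subCheck cfg T_s30 (child (child (child (child C4 0 3) 0 2) 1 0) 1 3) (child (child (child (child C4 0 3) 0 2) 0 1) 3 0) = true := by decide +kernel

/-- subtree with 1 leaf pairs -/
def T_s31 : PT := PT.L

set_option maxRecDepth 1000000 in
theorem s31 : subCheck cfg T_s31 (child (child (child (child C4 0 3) 0 2) 1 0) 3 1) (child (child (child (child C4 0 3) 0 2) 0 1) 3 0) = true := by decide +kernel

/-- subtree with 1 leaf pairs -/
def T_s32 : PT := PT.L

set_option maxRecDepth 1000000 in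
theorem s32 : subCheck cfg T_s32 (child (child (child (child (child (child C4 0 3) 0 2) 1 0) 1 3) 1 2) 0 3) (child (child (child (child (child C4 0 3) 0 2) 1 0) 1 3) 1 2) = true := by decide +kernel

/-- subtree with 1 leaf pairs -/
def T_s33 : PT := PT.L

set_option maxRecDepth 1000000 in
theorem s33 : subCheck cfg T_s33 (child (child (child (child (child (child C4 0 3) 0 2) 1 0) 1 3) 1 2) 3 0) (child (child (child (child (child (child C4 0 3) 0 2) 1 0) 1 3) 1 2) 0 3) = true := by decide +kernel

/-- subtree with 1 leaf pairs -/
def T_s34 : PT := PT.L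

set_option maxRecDepth 1000000 in
theorem s34 : subCheck cfg T_s34 (child (child (child (child (child (child (child C4 0 3) 0 2) 1 0) 1 3) 1 2) 3 0) 1 3) (child (child (child (child (child (child C4 0 3) 0 2) 1 0) 1 3) 1 2) 3 0) = true := by decide +kernel

/-- subtree with 1 leaf pairs -/
def T_s35 : PT := PT.L

set_option maxRecDepth 1000000 in
theorem s35 : subCheck cfg T_s35 (child (child (child (child (child (child (child C4 0 3) 0 2) 1 0) 1 3) 1 2) 3 0) 3 1) (child (child (child (child (child (child C4 0 3) 0 2) 1 0) 1 3) 1 2) 3 0) = true := by decide +kernel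

end Crest.Agent.Lib.Bc.Q4I.Cert
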