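import Crest.Agent.Lib.Bc.Q4I.Cert.P2
/-! Generated by split.py (helper88): kernel checks of subtrees. -/
set_option autoImplicit false
set_option Elab.async false
namespace Crest.Agent.Lib.Bc.Q4I.Cert

open Crest.Agent.Lib.Bc.BernCert

/-- subtree with 1 leaf pairs -/
def T_s36 : PT := PT.L

set_option maxRecDepth 1000000 in
theorem s36 : subCheck cfg T_s36 (child (child (child (child (child C4 0 3) 0 2) 1 0) 1 3) 1 2) (child (child (child (child (child C4 0 3) 0 2) 1 0) 1 3) 2 1) = true := by decide +kernel

/-- subtree with 1 leaf pairs -/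
def T_s37 : PT := PT.L

set_option maxRecDepth 1000000 in
theorem s37 : subCheck cfg T_s37 (child (child (child (child (child C4 0 3) 0 2) 1 0) 1 3) 2 1) (child (child (child (child C4 0 3) 0 2) 1 0) 1 3) = true := by decide +kernel

/-- subtree with 1 leaf pairs -/
def T_s38 : PT := PT.L

set_option maxRecDepth 1000000 in
theorem s38 : subCheck cfg T_s38 (child (child (child (child C4 0 3) 0 2) 1 0) 1 3) (child (child (child (child C4 0 3) 0 2) 1 0) 3 1) = true := by decide +kernel

/-- subtree with 1 leaf pairs -/
def T_s39 : PT := PT.L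

set_option maxRecDepth 1000000 in
theorem s39 : subCheck cfg T_s39 (child (child (child (child C4 0 3) 0 2) 1 0) 3 1) (child (child (child (child C4 0 3) 0 2) 1 0) 1 3) = true := by decide +kernel

/-- subtree with 1 leaf pairs -/
def T_s40 : PT := PT.L

set_option maxRecDepth 1000000 in
theorem s40 : subCheck cfg T_s40 (child (child (child (child C4 0 3) 0 2) 1 0) 3 1) (child (child (child (child C4 0 3) 0 2) 1 0) 3 1) = true := by decide +kernel

/-- subtree with 1 leaf pairs -/
def T_s41 : PT := PT.L

set_option maxRecDepth 1000000 in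
theorem s41 : subCheck cfg T_s41 (child (child (child (child (child (child C4 0 3) 0 2) 0 1) 0 3) 0 2) 0 3) (child (child C4 0 3) 2 0) = true := by decide +kernel

/-- subtree with 1 leaf pairs -/
def T_s42 : PT := PT.L

set_option maxRecDepth 1000000 in
theorem s42 : subCheck cfg T_s42 (child (child (child (child (child (child C4 0 3) 0 2) 0 1) 0 3) 0 2) 3 0) (child (child C4 0 3) 2 0) = true := by decide +kernel

/-- subtree with 1 leaf pairs -/
def T_s43 : PT := PT.L

set_option maxRecDepth 1000000 in
theorem s43 : subCheck cfg T_s43 (child (child (child (child (child C4 0 3) 0 2) 0 1) 0 3) 2 0) (child (child C4 0 3) 2 0) = true := by decide +kernel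

/-- subtree with 1 leaf pairs -/
def T_s44 : PT := PT.L

set_option maxRecDepth 1000000 in
theorem s44 : subCheck cfg T_s44 (child (child (child (child C4 0 3) 0 2) 0 1) 3 0) (child (child (child C4 0 3) 2 0) 1 3) = true := by decide +kernel

/-- subtree with 1 leaf pairs -/
def T_s45 : PT := PT.L

set_option maxRecDepth 1000000 in
theorem s45 : subCheck cfg T_s45 (child (child (child (child C4 0 3) 0 2) 0 1) 3 0) (child (child (child C4 0 3) 2 0) 3 1) = true := by decide +kernel

/-- subtree with 1 leaf pairs -/
def T_s46 : PT := PT.L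

set_option maxRecDepth 1000000 in
theorem s46 : subCheck cfg T_s46 (child (child (child (child (child C4 0 3) 0 2) 1 0) 1 3) 1 2) (child (child (child (child (child C4 0 3) 2 0) 1 3) 1 2) 0 1) = true := by decide +kernel

/-- subtree with 1 leaf pairs -/
def T_s47 : PT := PT.L

set_option maxRecDepth 1000000 in
theorem s47 : subCheck cfg T_s47 (child (child (child (child (child (child C4 0 3) 0 2) 1 0) 1 3) 1 2) 0 3) (child (child (child (child (child C4 0 3) 2 0) 1 3) 1 2) 1 0) = true := by decide +kernel

end Crest.Agent.Lib.Bc.Q4I.Cert
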