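import Crest.Agent.Lib.Bc.Q4I.Cert.P3
/-! Generated by split.py (helper88): kernel checks of subtrees. -/
set_option autoImplicit false
set_option Elab.async false
namespace Crest.Agent.Lib.Bc.Q4I.Cert

open Crest.Agent.Lib.Bc.BernCert

/-- subtree with 1 leaf pairs -/
def T_s48 : PT := PT.L

set_option maxRecDepth 1000000 in
theorem s48 : subCheck cfg T_s48 (child (child (child (child (child (child (child C4 0 3) 0 2) 1 0) 1 3) 1 2) 3 0) 1 3) (child (child (child (child (child C4 0 3) 2 0) 1 3) 1 2) 1 0) = true := by decide +kernel

/-- subtree with 1 leaf pairs -/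
def T_s49 : PT := PT.L

set_option maxRecDepth 1000000 in
theorem s49 : subCheck cfg T_s49 (child (child (child (child (child (child (child C4 0 3) 0 2) 1 0) 1 3) 1 2) 3 0) 3 1) (child (child (child (child (child C4 0 3) 2 0) 1 3) 1 2) 1 0) = true := by decide +kernel

/-- subtree with 1 leaf pairs -/
def T_s50 : PT := PT.L

set_option maxRecDepth 1000000 in
theorem s50 : subCheck cfg T_s50 (child (child (child (child (child C4 0 3) 0 2) 1 0) 1 3) 2 1) (child (child (child (child C4 0 3) 2 0) 1 3) 1 2) = true := by decide +kernel

/-- subtree with 1 leaf pairs -/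
def T_s51 : PT := PT.L

set_option maxRecDepth 1000000 in
theorem s51 : subCheck cfg T_s51 (child (child (child (child C4 0 3) 0 2) 1 0) 1 3) (child (child (child (child C4 0 3) 2 0) 1 3) 2 1) = true := by decide +kernel

/-- subtree with 1 leaf pairs -/
def T_s52 : PT := PT.L

set_option maxRecDepth 1000000 in
theorem s52 : subCheck cfg T_s52 (child (child (child (child C4 0 3) 0 2) 1 0) 1 3) (child (child (child C4 0 3) 2 0) 3 1) = true := by decide +kernel

/-- subtree with 1 leaf pairs -/
def T_s53 : PT := PT.L

set_option maxRecDepth 1000000 in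
theorem s53 : subCheck cfg T_s53 (child (child (child (child C4 0 3) 0 2) 1 0) 3 1) (child (child (child C4 0 3) 2 0) 1 3) = true := by decide +kernel

/-- subtree with 1 leaf pairs -/
def T_s54 : PT := PT.L

set_option maxRecDepth 1000000 in
theorem s54 : subCheck cfg T_s54 (child (child (child (child C4 0 3) 0 2) 1 0) 3 1) (child (child (child C4 0 3) 2 0) 3 1) = true := by decide +kernel

/-- subtree with 1 leaf pairs -/
def T_s55 : PT := PT.L

set_option maxRecDepth 1000000 in
theorem s55 : subCheck cfg T_s55 (child (child C4 0 3) 2 0) (child (child (child (child (child (child C4 0 3) 0 2) 0 1) 0 3) 0 2) 0 3) = true := by decide +kernel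

/-- subtree with 1 leaf pairs -/
def T_s56 : PT := PT.L

set_option maxRecDepth 1000000 in
theorem s56 : subCheck cfg T_s56 (child (child C4 0 3) 2 0) (child (child (child (child (child (child C4 0 3) 0 2) 0 1) 0 3) 0 2) 3 0) = true := by decide +kernel

/-- subtree with 1 leaf pairs -/
def T_s57 : PT := PT.L

set_option maxRecDepth 1000000 in
theorem s57 : subCheck cfg T_s57 (child (child C4 0 3) 2 0) (child (child (child (child (child C4 0 3) 0 2) 0 1) 0 3) 2 0) = true := by decide +kernel

/-- subtree with 1 leaf pairs -/
def T_s58 : PT := PT.L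

set_option maxRecDepth 1000000 in
theorem s58 : subCheck cfg T_s58 (child (child (child C4 0 3) 2 0) 1 3) (child (child (child (child C4 0 3) 0 2) 0 1) 3 0) = true := by decide +kernel

/-- subtree with 1 leaf pairs -/
def T_s59 : PT := PT.L

set_option maxRecDepth 1000000 in
theorem s59 : subCheck cfg T_s59 (child (child (child C4 0 3) 2 0) 3 1) (child (child (child (child C4 0 3) 0 2) 0 1) 3 0) = true := by decide +kernel

end Crest.Agent.Lib.Bc.Q4I.Cert
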