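import Crest.Agent.Lib.Bc.Q4I.Cert.P4
/-! Generated by split.py (helper88): kernel checks of subtrees. -/
set_option autoImplicit false
set_option Elab.async false
namespace Crest.Agent.Lib.Bc.Q4I.Cert

open Crest.Agent.Lib.Bc.BernCert

/-- subtree with 1 leaf pairs -/
def T_s60 : PT := PT.L

set_option maxRecDepth 1000000 in
theorem s60 : subCheck cfg T_s60 (child (child (child (child (child C4 0 3) 2 0) 1 3) 1 2) 0 1) (child (child (child (child C4 0 3) 0 2) 1 0) 1 3) = true := by decide +kernel

/-- subtree with 1 leaf pairs -/
def T_s61 : PT := PT.L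

set_option maxRecDepth 1000000 in
theorem s61 : subCheck cfg T_s61 (child (child (child (child (child C4 0 3) 2 0) 1 3) 1 2) 1 0) (child (child (child (child (child (child C4 0 3) 0 2) 1 0) 1 3) 1 2) 0 3) = true := by decide +kernel

/-- subtree with 1 leaf pairs -/
def T_s62 : PT := PT.L

set_option maxRecDepth 1000000 in
theorem s62 : subCheck cfg T_s62 (child (child (child (child (child (child C4 0 3) 2 0) 1 3) 1 2) 1 0) 1 3) (child (child (child (child (child (child C4 0 3) 0 2) 1 0) 1 3) 1 2) 3 0) = true := by decide +kernel

/-- subtree with 1 leaf pairs -/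
def T_s63 : PT := PT.L

set_option maxRecDepth 1000000 in
theorem s63 : subCheck cfg T_s63 (child (child (child (child (child (child C4 0 3) 2 0) 1 3) 1 2) 1 0) 3 1) (child (child (child (child (child (child C4 0 3) 0 2) 1 0) 1 3) 1 2) 3 0) = true := by decide +kernel

/-- subtree with 1 leaf pairs -/
def T_s64 : PT := PT.L

set_option maxRecDepth 1000000 in
theorem s64 : subCheck cfg T_s64 (child (child (child (child (child C4 0 3) 2 0) 1 3) 1 2) 1 0) (child (child (child (child (child C4 0 3) 0 2) 1 0) 1 3) 2 1) = true := by decide +kernel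

/-- subtree with 1 leaf pairs -/
def T_s65 : PT := PT.L

set_option maxRecDepth 1000000 in
theorem s65 : subCheck cfg T_s65 (child (child (child (child C4 0 3) 2 0) 1 3) 2 1) (child (child (child (child C4 0 3) 0 2) 1 0) 1 3) = true := by decide +kernel

/-- subtree with 1 leaf pairs -/
def T_s66 : PT := PT.L

set_option maxRecDepth 1000000 in
theorem s66 : subCheck cfg T_s66 (child (child (child C4 0 3) 2 0) 1 3) (child (child (child (child C4 0 3) 0 2) 1 0) 3 1) = true := by decide +kernel

/-- subtree with 1 leaf pairs -/
def T_s67 : PT := PT.L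

set_option maxRecDepth 1000000 in
theorem s67 : subCheck cfg T_s67 (child (child (child C4 0 3) 2 0) 3 1) (child (child (child C4 0 3) 0 2) 1 0) = true := by decide +kernel

/-- subtree with 1 leaf pairs -/
def T_s68 : PT := PT.L

set_option maxRecDepth 1000000 in
theorem s68 : subCheck cfg T_s68 (child (child (child (child (child C4 0 3) 2 0) 1 3) 1 2) 0 1) (child (child (child (child C4 0 3) 2 0) 1 3) 1 2) = true := by decide +kernel

/-- subtree with 1 leaf pairs -/
def T_s69 : PT := PT.L

set_option maxRecDepth 1000000 in
theorem s69 : subCheck cfg T_s69 (child (child (child (child (child C4 0 3) 2 0) 1 3) 1 2) 1 0) (child (child (child (child (child C4 0 3) 2 0) 1 3) 1 2) 0 1) = true := by decide +kernel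

/-- subtree with 1 leaf pairs -/
def T_s70 : PT := PT.L

set_option maxRecDepth 1000000 in
theorem s70 : subCheck cfg T_s70 (child (child (child (child (child (child C4 0 3) 2 0) 1 3) 1 2) 1 0) 1 3) (child (child (child (child (child C4 0 3) 2 0) 1 3) 1 2) 1 0) = true := by decide +kernel

/-- subtree with 1 leaf pairs -/
def T_s71 : PT := PT.L

set_option maxRecDepth 1000000 in
theorem s71 : subCheck cfg T_s71 (child (child (child (child (child (child C4 0 3) 2 0) 1 3) 1 2) 1 0) 3 1) (child (child (child (child (child C4 0 3) 2 0) 1 3) 1 2) 1 0) = true := by decide +kernel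

end Crest.Agent.Lib.Bc.Q4I.Cert
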