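import Crest.Agent.Lib.Bc.Q4I.Cert.P5
/-! Generated by split.py (helper88): kernel checks of subtrees. -/
set_option autoImplicit false
set_option Elab.async false
namespace Crest.Agent.Lib.Bc.Q4I.Cert

open Crest.Agent.Lib.Bc.BernCert

/-- subtree with 1 leaf pairs -/
def T_s72 : PT := PT.L

set_option maxRecDepth 1000000 in
theorem s72 : subCheck cfg T_s72 (child (child (child (child C4 0 3) 2 0) 1 3) 1 2) (child (child (child (child C4 0 3) 2 0) 1 3) 2 1) = true := by decide +kernel

/-- subtree with 1 leaf pairs -/
def T_s73 : PT := PT.L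

set_option maxRecDepth 1000000 in
theorem s73 : subCheck cfg T_s73 (child (child (child (child C4 0 3) 2 0) 1 3) 2 1) (child (child (child C4 0 3) 2 0) 1 3) = true := by decide +kernel

/-- subtree with 1 leaf pairs -/
def T_s74 : PT := PT.L

set_option maxRecDepth 1000000 in
theorem s74 : subCheck cfg T_s74 (child (child (child C4 0 3) 2 0) 1 3) (child (child (child C4 0 3) 2 0) 3 1) = true := by decide +kernel

/-- subtree with 1 leaf pairs -/
def T_s75 : PT := PT.L

set_option maxRecDepth 1000000 in
theorem s75 : subCheck cfg T_s75 (child (child (child C4 0 3) 2 0) 3 1) (child (child C4 0 3) 2 0) = true := by decide +kernel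

/-- subtree with 1 leaf pairs -/
def T_s76 : PT := PT.L

set_option maxRecDepth 1000000 in
theorem s76 : subCheck cfg T_s76 (child (child (child (child (child (child C4 0 3) 0 2) 0 1) 0 3) 0 2) 0 3) (child (child C4 3 0) 1 3) = true := by decide +kernel

/-- subtree with 1 leaf pairs -/
def T_s77 : PT := PT.L

set_option maxRecDepth 1000000 in
theorem s77 : subCheck cfg T_s77 (child (child (child (child (child (child (child (child (child C4 0 3) 0 2) 0 1) 0 3) 0 2) 0 3) 0 3) 0 2) 0 1) (child (child C4 3 0) 3 1) = true := by decide +kernel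

/-- subtree with 1 leaf pairs -/
def T_s78 : PT := PT.L

set_option maxRecDepth 1000000 in
theorem s78 : subCheck cfg T_s78 (child (child (child (child (child (child (child (child (child C4 0 3) 0 2) 0 1) 0 3) 0 2) 0 3) 0 3) 0 2) 1 0) (child (child C4 3 0) 3 1) = true := by decide +kernel

/-- subtree with 1 leaf pairs -/
def T_s79 : PT := PT.L

set_option maxRecDepth 1000000 in
theorem s79 : subCheck cfg T_s79 (child (child (child (child (child (child (child (child C4 0 3) 0 2) 0 1) 0 3) 0 2) 0 3) 0 3) 2 0) (child (child C4 3 0) 3 1) = true := by decide +kernel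

/-- subtree with 1 leaf pairs -/
def T_s80 : PT := PT.L

set_option maxRecDepth 1000000 in
theorem s80 : subCheck cfg T_s80 (child (child (child (child (child (child (child C4 0 3) 0 2) 0 1) 0 3) 0 2) 0 3) 3 0) (child (child C4 3 0) 3 1) = true := by decide +kernel

/-- subtree with 1 leaf pairs -/
def T_s81 : PT := PT.L

set_option maxRecDepth 1000000 in
theorem s81 : subCheck cfg T_s81 (child (child (child (child (child (child C4 0 3) 0 2) 0 1) 0 3) 0 2) 3 0) (child (child C4 3 0) 1 3) = true := by decide +kernel

/-- subtree with 1 leaf pairs -/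
def T_s82 : PT := PT.L

set_option maxRecDepth 1000000 in
theorem s82 : subCheck cfg T_s82 (child (child (child (child (child (child C4 0 3) 0 2) 0 1) 0 3) 0 2) 3 0) (child (child C4 3 0) 3 1) = true := by decide +kernel

/-- subtree with 1 leaf pairs -/
def T_s83 : PT := PT.L

set_option maxRecDepth 1000000 in
theorem s83 : subCheck cfg T_s83 (child (child (child (child (child C4 0 3) 0 2) 0 1) 0 3) 2 0) (child (child C4 3 0) 1 3) = true := by decide +kernel

end Crest.Agent.Lib.Bc.Q4I.Cert
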