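import Crest.Agent.Lib.Bc.Q4I.Cert.P6
/-! Generated by split.py (helper88): kernel checks of subtrees. -/
set_option autoImplicit false
set_option Elab.async false
namespace Crest.Agent.Lib.Bc.Q4I.Cert

open Crest.Agent.Lib.Bc.BernCert

/-- subtree with 1 leaf pairs -/
def T_s84 : PT := PT.L

set_option maxRecDepth 1000000 in
theorem s84 : subCheck cfg T_s84 (child (child (child (child (child C4 0 3) 0 2) 0 1) 0 3) 2 0) (child (child C4 3 0) 3 1) = true := by decide +kernel

/-- subtree with 1 leaf pairs -/
def T_s85 : PT := PT.L

set_option maxRecDepth 1000000 in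
theorem s85 : subCheck cfg T_s85 (child (child (child (child C4 0 3) 0 2) 0 1) 3 0) (child (child (child C4 3 0) 1 3) 0 1) = true := by decide +kernel

/-- subtree with 1 leaf pairs -/
def T_s86 : PT := PT.L

set_option maxRecDepth 1000000 in
theorem s86 : subCheck cfg T_s86 (child (child (child (child C4 0 3) 0 2) 0 1) 3 0) (child (child (child C4 3 0) 1 3) 1 0) = true := by decide +kernel

/-- subtree with 1 leaf pairs -/
def T_s87 : PT := PT.L

set_option maxRecDepth 1000000 in
theorem s87 : subCheck cfg T_s87 (child (child (child (child C4 0 3) 0 2) 0 1) 3 0) (child (child C4 3 0) 3 1) = true := by decide +kernel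

/-- subtree with 1 leaf pairs -/
def T_s88 : PT := PT.L

set_option maxRecDepth 1000000 in
theorem s88 : subCheck cfg T_s88 (child (child (child (child C4 0 3) 0 2) 1 0) 1 3) (child (child (child C4 3 0) 1 3) 0 1) = true := by decide +kernel

/-- subtree with 1 leaf pairs -/
def T_s89 : PT := PT.L

set_option maxRecDepth 1000000 in
theorem s89 : subCheck cfg T_s89 (child (child (child (child (child (child C4 0 3) 0 2) 1 0) 1 3) 1 2) 0 3) (child (child (child (child (child C4 3 0) 1 3) 1 0) 1 2) 1 3) = true := by decide +kernel

/-- subtree with 1 leaf pairs -/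
def T_s90 : PT := PT.L

set_option maxRecDepth 1000000 in
theorem s90 : subCheck cfg T_s90 (child (child (child (child (child (child (child C4 0 3) 0 2) 1 0) 1 3) 1 2) 3 0) 1 3) (child (child (child (child (child C4 3 0) 1 3) 1 0) 1 2) 1 3) = true := by decide +kernel

/-- subtree with 1 leaf pairs -/
def T_s91 : PT := PT.L

set_option maxRecDepth 1000000 in
theorem s91 : subCheck cfg T_s91 (child (child (child (child (child (child (child C4 0 3) 0 2) 1 0) 1 3) 1 2) 3 0) 3 1) (child (child (child (child (child C4 3 0) 1 3) 1 0) 1 2) 1 3) = true := by decide +kernel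

/-- subtree with 1 leaf pairs -/
def T_s92 : PT := PT.L

set_option maxRecDepth 1000000 in
theorem s92 : subCheck cfg T_s92 (child (child (child (child (child C4 0 3) 0 2) 1 0) 1 3) 1 2) (child (child (child (child (child C4 3 0) 1 3) 1 0) 1 2) 3 1) = true := by decide +kernel

/-- subtree with 1 leaf pairs -/
def T_s93 : PT := PT.L

set_option maxRecDepth 1000000 in
theorem s93 : subCheck cfg T_s93 (child (child (child (child (child C4 0 3) 0 2) 1 0) 1 3) 2 1) (child (child (child (child C4 3 0) 1 3) 1 0) 1 2) = true := by decide +kernel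

/-- subtree with 1 leaf pairs -/
def T_s94 : PT := PT.L

set_option maxRecDepth 1000000 in
theorem s94 : subCheck cfg T_s94 (child (child (child (child C4 0 3) 0 2) 1 0) 1 3) (child (child (child (child C4 3 0) 1 3) 1 0) 2 1) = true := by decide +kernel

/-- subtree with 1 leaf pairs -/
def T_s95 : PT := PT.L

set_option maxRecDepth 1000000 in
theorem s95 : subCheck cfg T_s95 (child (child (child (child C4 0 3) 0 2) 1 0) 3 1) (child (child (child C4 3 0) 1 3) 0 1) = true := by decide +kernel

end Crest.Agent.Lib.Bc.Q4I.Cert
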