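import Crest.Agent.Lib.Bc.Q4I.Cert.P7
/-! Generated by split.py (helper88): kernel checks of subtrees. -/
set_option autoImplicit false
set_option Elab.async false
namespace Crest.Agent.Lib.Bc.Q4I.Cert

open Crest.Agent.Lib.Bc.BernCert

/-- subtree with 1 leaf pairs -/
def T_s96 : PT := PT.L

set_option maxRecDepth 1000000 in
theorem s96 : subCheck cfg T_s96 (child (child (child (child C4 0 3) 0 2) 1 0) 3 1) (child (child (child C4 3 0) 1 3) 1 0) = true := by decide +kernel

/-- subtree with 1 leaf pairs -/
def T_s97 : PT := PT.L

set_option maxRecDepth 1000000 in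
theorem s97 : subCheck cfg T_s97 (child (child (child C4 0 3) 0 2) 1 0) (child (child C4 3 0) 3 1) = true := by decide +kernel

/-- subtree with 1 leaf pairs -/
def T_s98 : PT := PT.L

set_option maxRecDepth 1000000 in
theorem s98 : subCheck cfg T_s98 (child (child (child C4 0 3) 2 0) 1 3) (child (child (child C4 3 0) 1 3) 0 1) = true := by decide +kernel

/-- subtree with 1 leaf pairs -/
def T_s99 : PT := PT.L

set_option maxRecDepth 1000000 in
theorem s99 : subCheck cfg T_s99 (child (child (child (child (child C4 0 3) 2 0) 1 3) 1 2) 0 1) (child (child (child (child C4 3 0) 1 3) 1 0) 1 2) = true := by decide +kernel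

/-- subtree with 1 leaf pairs -/
def T_s100 : PT := PT.L

set_option maxRecDepth 1000000 in
theorem s100 : subCheck cfg T_s100 (child (child (child (child (child (child C4 0 3) 2 0) 1 3) 1 2) 1 0) 1 3) (child (child (child (child (child C4 3 0) 1 3) 1 0) 1 2) 1 3) = true := by decide +kernel

/-- subtree with 1 leaf pairs -/
def T_s101 : PT := PT.L

set_option maxRecDepth 1000000 in
theorem s101 : subCheck cfg T_s101 (child (child (child (child (child (child C4 0 3) 2 0) 1 3) 1 2) 1 0) 3 1) (child (child (child (child (child C4 3 0) 1 3) 1 0) 1 2) 1 3) = true := by decide +kernel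

/-- subtree with 1 leaf pairs -/
def T_s102 : PT := PT.L

set_option maxRecDepth 1000000 in
theorem s102 : subCheck cfg T_s102 (child (child (child (child (child C4 0 3) 2 0) 1 3) 1 2) 1 0) (child (child (child (child (child C4 3 0) 1 3) 1 0) 1 2) 3 1) = true := by decide +kernel

/-- subtree with 1 leaf pairs -/
def T_s103 : PT := PT.L

set_option maxRecDepth 1000000 in
theorem s103 : subCheck cfg T_s103 (child (child (child (child C4 0 3) 2 0) 1 3) 1 2) (child (child (child (child C4 3 0) 1 3) 1 0) 2 1) = true := by decide +kernel

/-- subtree with 1 leaf pairs -/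
def T_s104 : PT := PT.L

set_option maxRecDepth 1000000 in
theorem s104 : subCheck cfg T_s104 (child (child (child (child C4 0 3) 2 0) 1 3) 2 1) (child (child (child C4 3 0) 1 3) 1 0) = true := by decide +kernel

/-- subtree with 1 leaf pairs -/
def T_s105 : PT := PT.L

set_option maxRecDepth 1000000 in
theorem s105 : subCheck cfg T_s105 (child (child (child C4 0 3) 2 0) 3 1) (child (child C4 3 0) 1 3) = true := by decide +kernel

/-- subtree with 1 leaf pairs -/
def T_s106 : PT := PT.L

set_option maxRecDepth 1000000 in
theorem s106 : subCheck cfg T_s106 (child (child C4 0 3) 2 0) (child (child C4 3 0) 3 1) = true := by decide +kernel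

/-- subtree with 1 leaf pairs -/
def T_s107 : PT := PT.L

set_option maxRecDepth 1000000 in
theorem s107 : subCheck cfg T_s107 (child (child C4 3 0) 1 3) (child (child (child (child (child (child C4 0 3) 0 2) 0 1) 0 3) 0 2) 0 3) = true := by decide +kernel

end Crest.Agent.Lib.Bc.Q4I.Cert
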