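import Crest.Agent.Lib.Bc.Q4I.Cert.P8
/-! Generated by split.py (helper88): kernel checks of subtrees. -/
set_option autoImplicit false
set_option Elab.async false
namespace Crest.Agent.Lib.Bc.Q4I.Cert

open Crest.Agent.Lib.Bc.BernCert

/-- subtree with 1 leaf pairs -/
def T_s108 : PT := PT.L

set_option maxRecDepth 1000000 in
theorem s108 : subCheck cfg T_s108 (child (child C4 3 0) 3 1) (child (child (child (child (child (child (child (child (child C4 0 3) 0 2) 0 1) 0 3) 0 2) 0 3) 0 3) 0 2) 0 1) = true := by decide +kernel

/-- subtree with 1 leaf pairs -/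
def T_s109 : PT := PT.L

set_option maxRecDepth 1000000 in
theorem s109 : subCheck cfg T_s109 (child (child C4 3 0) 3 1) (child (child (child (child (child (child (child (child (child C4 0 3) 0 2) 0 1) 0 3) 0 2) 0 3) 0 3) 0 2) 1 0) = true := by decide +kernel

/-- subtree with 1 leaf pairs -/
def T_s110 : PT := PT.L

set_option maxRecDepth 1000000 in
theorem s110 : subCheck cfg T_s110 (child (child C4 3 0) 3 1) (child (child (child (child (child (child (child (child C4 0 3) 0 2) 0 1) 0 3) 0 2) 0 3) 0 3) 2 0) = true := by decide +kernel

/-- subtree with 1 leaf pairs -/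
def T_s111 : PT := PT.L

set_option maxRecDepth 1000000 in
theorem s111 : subCheck cfg T_s111 (child (child C4 3 0) 3 1) (child (child (child (child (child (child (child C4 0 3) 0 2) 0 1) 0 3) 0 2) 0 3) 3 0) = true := by decide +kernel

/-- subtree with 1 leaf pairs -/
def T_s112 : PT := PT.L

set_option maxRecDepth 1000000 in
theorem s112 : subCheck cfg T_s112 (child (child C4 3 0) 1 3) (child (child (child (child (child (child C4 0 3) 0 2) 0 1) 0 3) 0 2) 3 0) = true := by decide +kernel

/-- subtree with 1 leaf pairs -/
def T_s113 : PT := PT.L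

set_option maxRecDepth 1000000 in
theorem s113 : subCheck cfg T_s113 (child (child C4 3 0) 3 1) (child (child (child (child (child (child C4 0 3) 0 2) 0 1) 0 3) 0 2) 3 0) = true := by decide +kernel

/-- subtree with 1 leaf pairs -/
def T_s114 : PT := PT.L

set_option maxRecDepth 1000000 in
theorem s114 : subCheck cfg T_s114 (child (child C4 3 0) 1 3) (child (child (child (child (child C4 0 3) 0 2) 0 1) 0 3) 2 0) = true := by decide +kernel

/-- subtree with 1 leaf pairs -/
def T_s115 : PT := PT.L

set_option maxRecDepth 1000000 in
theorem s115 : subCheck cfg T_s115 (child (child C4 3 0) 3 1) (child (child (child (child (child C4 0 3) 0 2) 0 1) 0 3) 2 0) = true := by decide +kernel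

/-- subtree with 1 leaf pairs -/
def T_s116 : PT := PT.L

set_option maxRecDepth 1000000 in
theorem s116 : subCheck cfg T_s116 (child (child (child C4 3 0) 1 3) 0 1) (child (child (child (child C4 0 3) 0 2) 0 1) 3 0) = true := by decide +kernel

/-- subtree with 1 leaf pairs -/
def T_s117 : PT := PT.L

set_option maxRecDepth 1000000 in
theorem s117 : subCheck cfg T_s117 (child (child (child C4 3 0) 1 3) 1 0) (child (child (child (child C4 0 3) 0 2) 0 1) 3 0) = true := by decide +kernel

/-- subtree with 1 leaf pairs -/
def T_s118 : PT := PT.L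

set_option maxRecDepth 1000000 in
theorem s118 : subCheck cfg T_s118 (child (child C4 3 0) 3 1) (child (child (child (child C4 0 3) 0 2) 0 1) 3 0) = true := by decide +kernel

/-- subtree with 1 leaf pairs -/
def T_s119 : PT := PT.L

set_option maxRecDepth 1000000 in
theorem s119 : subCheck cfg T_s119 (child (child (child C4 3 0) 1 3) 0 1) (child (child (child C4 0 3) 0 2) 1 0) = true := by decide +kernel

end Crest.Agent.Lib.Bc.Q4I.Cert
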